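import Vale.Agent.Helper17.ThorpTV

/-!
# P162: a lower bound for the mixing time of the Thorp shuffle on `2 ^ (d + 1)` cards

For a deck of `n = 2 * 2 ^ d = 2 ^ (d + 1)` cards, the total variation distance between the
law after `t` Thorp shuffles and the uniform law is at least `1 / 3` for every `t ≤ 2 * d`.
Consequently every `t` with total variation distance at most `1 / 4` satisfies
`t ≥ 2 * d + 1 = 2 * log₂ n - 1`, that is, `t_mix(2 ^ (d + 1)) ≥ 2 * (d + 1) - 1`.
-/

namespace Vale.Agent.Results.P162.ThorpLowerBound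

open Vale.Agent.Helper17

theorem result : ∀ d : ℕ,
    (∀ t : ℕ, t ≤ 2 * d → (1 / 3 : ℚ) ≤ thorpTV (2 ^ d) t) ∧
    (∀ t : ℕ, thorpTV (2 ^ d) t ≤ 1 / 4 → 2 * d + 1 ≤ t) := by
  intro d
  refine ⟨fun t ht => thorpTV_ge_third d t ht, ?_⟩
  intro t ht
  by_contra hcon
  have h := thorpTV_ge_third d t (by omega)
  linarith

end Vale.Agent.Results.P162.ThorpLowerBound
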