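import Vale.Agent.Helper17.ThorpTV

/-!
# P162: the lower bound for the Thorp shuffle, stated without definitions of our own

The deck has `n = 2 * m` cards with `m = 2 ^ d`; positions are `0, ..., 2 * m - 1` (the
problem's positions `1, ..., n` shifted by one).  The hypothesis on `step` says that `step b`
is the permutation of positions made by one Thorp shuffle with coin vector `b`: for each
`i < m`, the cards in positions `i` and `m + i` are placed in positions `2 * i` and
`2 * i + 1`, the card from position `i` going to `2 * i + 1` exactly when the coin `b i` is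
true.  For a sequence `c 0, ..., c (t - 1)` of coin vectors, the product
`step (c (t - 1)) * ... * step (c 0)` (shuffle `c 0` first) is the permutation of positions
after the `t` shuffles; the fraction of the `2 ^ (t * m)` coin sequences giving a permutation
`σ` is the probability `q_n^{*t}(σ)`, and half the sum over `σ` of
`|q_n^{*t}(σ) - 1 / n!|` is the total variation distance to the uniform law.  This distance is
at least `1 / 3` for every `t ≤ 2 * d`, so every `t` at which it is at most `1 / 4` is at least
`2 * d + 1`.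

This is the theorem of the hand-in `ThorpLowerBound`, with the definitions written out.
-/

namespace Vale.Agent.Results.P162.ThorpLowerBoundPlain

open Vale.Agent.Helper17

theorem step_eq (m : ℕ) (step : (Fin m → Bool) → Equiv.Perm (Fin (2 * m)))
    (hstep : ∀ (b : Fin m → Bool) (i : Fin m) (p q : Fin (2 * m)),
      (p : ℕ) = i → (q : ℕ) = m + i →
        ((step b p : Fin (2 * m)) : ℕ) = 2 * i + (if b i then 1 else 0) ∧
        ((step b q : Fin (2 * m)) : ℕ) = 2 * i + (if b i then 0 else 1))
    (b : Fin m → Bool) : step b = thorpPerm m b := by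
  apply Equiv.ext
  intro p
  apply Fin.ext
  rw [thorpPerm_apply]
  unfold thorpFun
  have hp := p.isLt
  by_cases h : (p : ℕ) < m
  · rw [dif_pos h]
    have h1 := (hstep b ⟨p, h⟩ p ⟨m + p, by omega⟩ rfl rfl).1
    rw [h1]
    split_ifs <;> simp
  · rw [dif_neg h]
    have h1 := (hstep b ⟨p - m, by omega⟩ ⟨p - m, by omega⟩ p rfl (by simp; omega)).2
    rw [h1]
    split_ifs <;> simp

theorem walk_eq (m : ℕ) (step : (Fin m → Bool) → Equiv.Perm (Fin (2 * m)))
    (hs : ∀ b, step b = thorpPerm m b) (l : List (Fin m → Bool)) :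
    (l.map step).reverse.prod = thorpWalk m l := by
  induction l with
  | nil => simp [thorpWalk_nil]
  | cons b bs ih =>
    rw [List.map_cons, List.reverse_cons, List.prod_append, ih, thorpWalk_cons, hs]
    simp

theorem tv_eq (m t : ℕ) (step : (Fin m → Bool) → Equiv.Perm (Fin (2 * m)))
    (hs : ∀ b, step b = thorpPerm m b) :
    (1 / 2 : ℚ) * ∑ σ : Equiv.Perm (Fin (2 * m)),
      |((Finset.univ.filter (fun c : Fin t → Fin m → Bool =>
          (List.ofFn (fun k => step (c k))).reverse.prod = σ)).card : ℚ) / 2 ^ (t * m)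
        - 1 / ((2 * m).factorial : ℚ)| = thorpTV m t := by
  unfold thorpTV thorpLaw
  congr 1
  apply Finset.sum_congr rfl
  intro σ _
  have h : ∀ c : Fin t → Fin m → Bool,
      (List.ofFn (fun k => step (c k))).reverse.prod = thorpWalk m (List.ofFn c) := by
    intro c
    rw [← walk_eq m step hs, List.map_ofFn]
    rfl
  simp only [h]

/-- The Thorp shuffle lower bound with every notion written out (see the file header). -/
theorem result : ∀ (d m : ℕ) (step : (Fin m → Bool) → Equiv.Perm (Fin (2 * m))),
    m = 2 ^ d →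
    (∀ (b : Fin m → Bool) (i : Fin m) (p q : Fin (2 * m)),
      (p : ℕ) = i → (q : ℕ) = m + i →
        ((step b p : Fin (2 * m)) : ℕ) = 2 * i + (if b i then 1 else 0) ∧
        ((step b q : Fin (2 * m)) : ℕ) = 2 * i + (if b i then 0 else 1)) →
    (∀ t : ℕ, t ≤ 2 * d →
      (1 / 3 : ℚ) ≤ (1 / 2 : ℚ) * ∑ σ : Equiv.Perm (Fin (2 * m)),
        |((Finset.univ.filter (fun c : Fin t → Fin m → Bool =>
            (List.ofFn (fun k => step (c k))).reverse.prod = σ)).card : ℚ) / 2 ^ (t * m)
          - 1 / ((2 * m).factorial : ℚ)|) ∧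
    (∀ t : ℕ,
      (1 / 2 : ℚ) * ∑ σ : Equiv.Perm (Fin (2 * m)),
        |((Finset.univ.filter (fun c : Fin t → Fin m → Bool =>
            (List.ofFn (fun k => step (c k))).reverse.prod = σ)).card : ℚ) / 2 ^ (t * m)
          - 1 / ((2 * m).factorial : ℚ)| ≤ 1 / 4 → 2 * d + 1 ≤ t) := by
  intro d m step hm hstep
  subst hm
  have hs := step_eq (2 ^ d) step hstep
  have key : ∀ t : ℕ, t ≤ 2 * d →
      (1 / 3 : ℚ) ≤ (1 / 2 : ℚ) * ∑ σ : Equiv.Perm (Fin (2 * 2 ^ d)),
        |((Finset.univ.filter (fun c : Fin t → Fin (2 ^ d) → Bool =>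
            (List.ofFn (fun k => step (c k))).reverse.prod = σ)).card : ℚ) / 2 ^ (t * 2 ^ d)
          - 1 / ((2 * 2 ^ d).factorial : ℚ)| := by
    intro t ht
    rw [tv_eq (2 ^ d) t step hs]
    exact thorpTV_ge_third d t ht
  refine ⟨key, ?_⟩
  intro t ht
  by_contra hcon
  have h := key t (by omega)
  linarith

end Vale.Agent.Results.P162.ThorpLowerBoundPlain
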